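import Vale.Agent.P309.Reduce

namespace Vale.Agent.Results.P309.Tradeoff

open MeasureTheory Vale.Agent.P309

/-- Memory-sample tradeoff for noiseless Gaussian linear regression: every learner with `M` bits
and horizon `T` that succeeds at accuracy `ε` has `T ≥ d log(1/ε) / (10^5 (1 + M/d^2))`. -/
theorem result (d : ℕ) (hd : 16 ≤ d) (ε : ℝ) (hε : 0 < ε) (hε' : ε ≤ 1 / 2) (M T : ℕ)
    (St : Type) [Fintype St] [MeasurableSpace St] [DiscreteMeasurableSpace St]
    (hM : Fintype.card St ≤ 2 ^ M)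
    (R : Type) [MeasurableSpace R] (ρ : Measure R) [IsProbabilityMeasure ρ]
    (L : Learner d St R) (h : 2 / 3 ≤ L.success ρ T ε) :
    (d : ℝ) * Real.log (1 / ε) ≤ 100000 * (1 + (M : ℝ) / (d : ℝ) ^ 2) * (T : ℝ) := by
  set q := d / 8 with hq
  have hq2 : 2 ≤ q := by omega
  set a := (M + 1) / (q * q) + 1 with ha
  have h1 := Nat.div_add_mod (M + 1) (q * q)
  have h2 := Nat.mod_lt (M + 1) (show 0 < q * q by positivity)
  have h3 := L.tradeoff ρ (M := M) (a := a) hq2 (by omega) (by omega) hM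
    (by rw [ha]; nlinarith) hε (by linarith) h
  have h4 : (a : ℝ) * (q * q) ≤ M + 1 + q * q := by
    have : a * (q * q) ≤ M + 1 + q * q := by
      rw [ha, add_mul, one_mul]
      exact Nat.add_le_add_right (Nat.div_mul_le_self _ _) _
    exact_mod_cast this
  have h5 : (d : ℝ) ≤ 16 * q := by exact_mod_cast (by omega)
  have h6 : (2 : ℝ) ≤ q := by exact_mod_cast hq2
  have h7 : (16 : ℝ) ≤ d := by exact_mod_cast hd
  have h8 : 0 ≤ Real.log (1 / ε) := Real.log_nonneg (by rw [le_div_iff₀ hε]; linarith)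
  have h9 : (a : ℝ) ≤ 256 * (M / d ^ 2) + 2 := by
    have h10 : (M : ℝ) ≤ 256 * (M / d ^ 2) * (q * q) := by
      have : (0 : ℝ) ≤ M / d ^ 2 := by positivity
      calc (M : ℝ) = M / d ^ 2 * d ^ 2 := by field_simp
        _ ≤ M / d ^ 2 * (16 * q) ^ 2 := by gcongr
        _ = _ := by ring
    refine le_of_mul_le_mul_right ?_ (show (0 : ℝ) < q * q by positivity)
    nlinarith
  have h10 : (0 : ℝ) ≤ M / d ^ 2 := by positivity
  calc (d : ℝ) * Real.log (1 / ε) ≤ 16 * (q * Real.log (1 / ε)) := by nlinarith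
    _ ≤ 16 * ((22 * a + 542) * T) := by gcongr
    _ ≤ 16 * ((22 * (256 * (M / d ^ 2) + 2) + 542) * T) := by gcongr
    _ ≤ _ := by
      rw [← mul_assoc]
      exact mul_le_mul_of_nonneg_right (by linarith) (by positivity)

end Vale.Agent.Results.P309.Tradeoff
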